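import Vale.Agent.P290.R2.H596.Spec3
import Vale.Agent.P290.R2.H514.Jac

/-! S3: the existence of volume preserving polydiscs is open in the point and the parameter. -/

open Set Filter Metric
open scoped Topology

namespace Vale.Agent.P290.R2.H3

open Vale.Agent.P290 Vale.Agent.P290.K Vale.Agent.P290.H580 Vale.Agent.P290.H805
open Vale.Agent.P290.R2.H596

theorem det_C2 (A : C2 →L[ℂ] C2) :
    A.det = (A (1, 0)).1 * (A (0, 1)).2 - (A (0, 1)).1 * (A (1, 0)).2 := by
  change LinearMap.det (A : C2 →ₗ[ℂ] C2) = _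
  rw [← LinearMap.det_toMatrix (Module.Basis.finTwoProd ℂ), Matrix.det_fin_two]
  simp [LinearMap.toMatrix_apply]

/-- chain rule for the Jacobian -/
theorem jac_comp {T E : Type} [TopologicalSpace T] [TopologicalSpace E] (F : Family T E)
    (vol : E → T × C2 → ℂ) (t : T) (u : C2 → E) (q : C2 → C2) (y : C2)
    (hu : FH F t u (q y)) (hq : DifferentiableAt ℂ q y) :
    jac F vol t (fun y => u (q y)) y = jac F vol t u (q y) * (fderiv ℂ q y).det := by
  have h1 : fderiv ℂ (fun y' => (F.triv (u (q y)) (u (q y'))).2) y =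
      (fderiv ℂ (fun z => (F.triv (u (q y)) (u z)).2) (q y)).comp (fderiv ℂ q y) :=
    fderiv_comp (g := fun z => (F.triv (u (q y)) (u z)).2) (f := q) y hu.2.2 hq
  have hdet : ∀ A B : C2 →L[ℂ] C2, (A.comp B).det = A.det * B.det := fun A B =>
    LinearMap.det_comp (A : C2 →ₗ[ℂ] C2) (B : C2 →ₗ[ℂ] C2)
  simp only [jac]
  rw [h1, hdet, mul_assoc]

/-- the Jacobian is holomorphic -/
theorem jac_diff {T E : Type} [TopologicalSpace T] [TopologicalSpace E] (F : Family T E)
    (vol : E → T × C2 → ℂ) (hvol : RelForm F vol) (t : T) (u : C2 → E) (U : Set C2)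
    (hU : IsOpen U) (hu : ∀ y ∈ U, FH F t u y) {y : C2} (hy : y ∈ U) :
    DifferentiableAt ℂ (jac F vol t u) y := by
  set x := u y with hx
  have hsrc : ∀ᶠ y' in 𝓝 y, u y' ∈ (F.triv x).source := (hu y hy).eventually_source (F.mem _)
  obtain ⟨W, hW1, hW2, hW3⟩ := _root_.eventually_nhds_iff.1 (hsrc.and (hU.mem_nhds hy))
  set φ : C2 → C2 := fun y' => (F.triv x (u y')).2 with hφd
  have hφ : DifferentiableOn ℂ φ W := fun y' hy' =>
    ((hu y' (hW1 y' hy').2).diff (hW1 y' hy').1).differentiableWithinAt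
  have hC : ContDiffOn ℂ (2 : ℕ) φ W :=
    Vale.Agent.P290.contDiffOn_of_differentiableOn hW2 hφ 2
  have hC' : ContDiffAt ℂ 2 φ y := hC.contDiffAt (hW2.mem_nhds hW3)
  have hfd : DifferentiableAt ℂ (fderiv ℂ φ) y :=
    (hC'.fderiv_right (m := 1) (by norm_num)).differentiableAt (by simp)
  have hdet : DifferentiableAt ℂ (fun y' => (fderiv ℂ φ y').det) y := by
    simp only [det_C2]
    have e1 : DifferentiableAt ℂ (fun y' => fderiv ℂ φ y' (1, 0)) y :=
      hfd.clm_apply (differentiableAt_const _)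
    have e2 : DifferentiableAt ℂ (fun y' => fderiv ℂ φ y' (0, 1)) y :=
      hfd.clm_apply (differentiableAt_const _)
    exact (e1.fst.mul e2.snd).sub (e2.fst.mul e1.snd)
  have hzt : F.p (u y) = t := (hu y hy).1.self_of_nhds
  have e1 : F.triv x (u y) = (t, φ y) := by
    rw [← hzt]; exact F.mk_eq _ (F.mem _)
  have e2 : (t, φ y) ∈ (F.triv x).target := by
    rw [← e1]; exact (F.triv x).map_source (F.mem _)
  have hv : DifferentiableAt ℂ (fun y' => vol x (t, φ y')) y :=
    DifferentiableAt.comp (g := fun w => vol x (t, w)) (f := φ) y (hvol x t (φ y) e2).2.1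
      ((hφ y hW3).differentiableAt (hW2.mem_nhds hW3))
  refine (hv.mul hdet).congr_of_eventuallyEq ?_
  filter_upwards [hW2.mem_nhds hW3] with y' hy'
  exact H514.stJac T E F vol hvol t u y' x (hu y' (hW1 y' hy').2) (hW1 y' hy').1

theorem symNear (hJ : StJacClose) (hF : StFlat) (hs : StSurj) : StSymNear := by
  intro T E _ _ F vol hvol t₀ x₀ hx₀ R hR hSB
  obtain ⟨g₀, hg0, hg⟩ := hSB
  obtain ⟨ε, hε, hflat⟩ := hF R (R + 1 / 4) hR (by linarith)
  set a₀ := (F.triv x₀ x₀).2 with ha₀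
  have h00 : (0 : C2) ∈ closedBall (0 : C2) (R + 1) := mem_closedBall_self (by linarith)
  have hFH0 : FH F t₀ g₀ 0 := (hg 0 h00).1
  have hsrc0 : g₀ 0 ∈ (F.triv x₀).source := by rw [hg0]; exact F.mem x₀
  have hd : DifferentiableAt ℂ (fun z => (F.triv x₀ (g₀ z)).2) 0 := hFH0.diff hsrc0
  have hjac0 : vol x₀ (t₀, a₀) * (fderiv ℂ (fun z => (F.triv x₀ (g₀ z)).2) 0).det = 1 := by
    have h1 := (hg 0 h00).2
    rw [H514.stJac T E F vol hvol t₀ g₀ 0 x₀ hFH0 hsrc0, hg0] at h1
    exact h1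
  have hdet := right_ne_zero_of_mul (a := vol x₀ (t₀, a₀)) (by rw [hjac0]; exact one_ne_zero)
  set L := fderiv ℂ (fun z => (F.triv x₀ (g₀ z)).2) 0 with hLd
  set e := L.toContinuousLinearEquivOfDetNeZero hdet with hed
  have heL : (e : C2 →L[ℂ] C2) = L := L.coe_toContinuousLinearEquivOfDetNeZero hdet
  -- the local inverse
  have hf0 : HasFDerivAt (fun z => e.symm ((F.triv x₀ (g₀ z)).2 - a₀))
      (ContinuousLinearMap.id ℂ C2) 0 := by
    have h1 : HasFDerivAt (fun z => (F.triv x₀ (g₀ z)).2 - a₀) L 0 :=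
      hd.hasFDerivAt.sub_const a₀
    have h2 := (e.symm : C2 →L[ℂ] C2).hasFDerivAt.comp (0 : C2) h1
    refine h2.congr_fderiv ?_
    rw [← heL]
    ext <;> simp
  have hf00 : e.symm ((F.triv x₀ (g₀ 0)).2 - a₀) = 0 := by
    rw [hg0, sub_self, map_zero]
  have hlo := hf0.isLittleO.def (c := 1 / 16) (by norm_num)
  have hlo2 : ∀ᶠ z in 𝓝 (0 : C2), g₀ z ∈ (F.triv x₀).source ∧
      ‖e.symm ((F.triv x₀ (g₀ z)).2 - a₀) - z‖ ≤ 1 / 16 * ‖z‖ := by
    filter_upwards [hlo, hFH0.eventually_source hsrc0] with z h1 h2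
    refine ⟨h2, ?_⟩
    rw [hf00] at h1
    simpa using h1
  obtain ⟨r', hr', hball⟩ := Metric.nhds_basis_closedBall.eventually_iff.1 hlo2
  set r : ℝ := min r' (1 / 8) with hrd
  have hr0 : 0 < r := lt_min hr' (by norm_num)
  have hr8 : r ≤ 1 / 8 := min_le_right _ _
  have hball' : ∀ z ∈ closedBall (0 : C2) r, g₀ z ∈ (F.triv x₀).source ∧
      ‖e.symm ((F.triv x₀ (g₀ z)).2 - a₀) - z‖ < r / 8 := by
    intro z hz
    obtain ⟨h1, h2⟩ := hball (closedBall_subset_closedBall (min_le_left _ _) hz)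
    refine ⟨h1, h2.trans_lt ?_⟩
    have : ‖z‖ ≤ r := by simpa using hz
    linarith
  -- the deformation
  set O1 : Set (C2 × E) := {q | q.1 ∈ closedBall (0 : C2) r → q.2 ∈ (F.triv x₀).source ∧
      ‖e.symm ((F.triv x₀ q.2).2 - a₀) - q.1‖ < r / 8} with hO1
  have hO1n : ∀ z : C2, O1 ∈ 𝓝 (z, g₀ z) := by
    intro z
    by_cases hz : z ∈ closedBall (0 : C2) r
    · have hop : IsOpen {q : C2 × E | q.2 ∈ (F.triv x₀).source ∧
          ‖e.symm ((F.triv x₀ q.2).2 - a₀) - q.1‖ < r / 8} := by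
        have h1 : ContinuousOn (fun q : C2 × E => ‖e.symm ((F.triv x₀ q.2).2 - a₀) - q.1‖)
            (Prod.snd ⁻¹' (F.triv x₀).source) := by
          refine ContinuousOn.norm (ContinuousOn.sub ?_ continuous_fst.continuousOn)
          refine e.symm.continuous.comp_continuousOn (ContinuousOn.sub ?_ continuousOn_const)
          exact continuous_snd.comp_continuousOn
            ((F.triv x₀).continuousOn.comp continuous_snd.continuousOn fun q hq => hq)
        exact h1.isOpen_inter_preimage ((F.triv x₀).open_source.preimage continuous_snd)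
          isOpen_Iio
      filter_upwards [hop.mem_nhds (show (z, g₀ z) ∈ _ from hball' z hz)] with q hq _ using hq
    · have hc : ContinuousAt (fun q : C2 × E => q.1) (z, g₀ z) := by fun_prop
      filter_upwards [hc.eventually (isClosed_closedBall.isOpen_compl.mem_nhds hz)] with q hq hq'
        using absurd hq' hq
  have hK : Good (closedBall (0 : C2) (R + 3 / 4)) :=
    ⟨isCompact_closedBall _ _, convex_closedBall _ _⟩
  have hgK : ∀ᶠ z in 𝓝ˢ (closedBall (0 : C2) (R + 3 / 4)), FH F t₀ g₀ z := by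
    have h1 : ball (0 : C2) (R + 1) ∈ 𝓝ˢ (closedBall (0 : C2) (R + 3 / 4)) :=
      isOpen_ball.mem_nhdsSet.2 (closedBall_subset_ball (by linarith))
    filter_upwards [h1] with z hz using (hg z (ball_subset_closedBall hz)).1
  obtain ⟨𝒪, h𝒪, hclose⟩ := hJ T E F vol hvol t₀ g₀ (R + 1 / 2) (R + 3 / 4) (by linarith)
    (fun y hy => (hg y (closedBall_subset_closedBall (by linarith) hy)).1) ε hε
  have hdef := deformation (F := F) (t₀ := t₀) hK hgK (𝒪 ∩ O1)
    (fun z hz => inter_mem (h𝒪 z hz) (hO1n z))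
  have hpc : ContinuousAt F.p x₀ := by
    have h1 : ContinuousAt (fun y => (F.triv x₀ y).1) x₀ :=
      continuous_fst.continuousAt.comp ((F.triv x₀).continuousAt (F.mem x₀))
    refine h1.congr ?_
    filter_upwards [(F.triv x₀).open_source.mem_nhds (F.mem x₀)] with y hy
    exact F.fst x₀ y hy
  have hev1 : ∀ᶠ x in 𝓝 x₀, x ∈ (F.triv x₀).source ∧
      ‖e.symm ((F.triv x₀ x).2 - a₀)‖ < r / 4 := by
    have h3 : ∀ᶠ x in 𝓝 x₀, x ∈ (F.triv x₀).source := (F.triv x₀).open_source.mem_nhds (F.mem x₀)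
    refine h3.and ?_
    have h2 : ContinuousAt (fun x => ‖e.symm ((F.triv x₀ x).2 - a₀)‖) x₀ :=
      (e.symm.continuous.continuousAt.comp
        ((continuous_snd.continuousAt.comp ((F.triv x₀).continuousAt (F.mem x₀))).sub
          continuousAt_const)).norm
    refine h2.eventually (Iio_mem_nhds ?_)
    change ‖e.symm ((F.triv x₀ x₀).2 - a₀)‖ < r / 4
    rw [← ha₀, sub_self, map_zero, norm_zero]
    positivity
  have hpt : Tendsto F.p (𝓝 x₀) (𝓝 t₀) := by
    have h1 := hpc.tendsto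
    rwa [hx₀] at h1
  have hev2 := hpt.eventually (hdef.and hclose)
  filter_upwards [hev1, hev2] with x h1 h2
  obtain ⟨hxs, hxn⟩ := h1
  obtain ⟨⟨u, hu, huO⟩, hcl⟩ := h2
  have huK : ∀ y ∈ closedBall (0 : C2) (R + 3 / 4), FH F (F.p x) u y :=
    fun y hy => hu.self_of_nhdsSet y hy
  have hjc := hcl u huK (fun y hy => (huO y hy).1)
  have hrK : ∀ z ∈ ball (0 : C2) r, z ∈ closedBall (0 : C2) (R + 3 / 4) := fun z hz =>
    closedBall_subset_closedBall (by linarith) (ball_subset_closedBall hz)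
  have hrO : ∀ z ∈ ball (0 : C2) r, u z ∈ (F.triv x₀).source ∧
      ‖e.symm ((F.triv x₀ (u z)).2 - a₀) - z‖ < r / 8 := fun z hz =>
    (huO z (hrK z hz)).2 (ball_subset_closedBall hz)
  obtain ⟨z₀, hz₀, hz₀e⟩ := hs C2 (fun z => e.symm ((F.triv x₀ (u z)).2 - a₀)) r hr0
    (fun z hz => by
      have h3 : DifferentiableAt ℂ (fun y => (F.triv x₀ (u y)).2) z :=
        (huK z (hrK z hz)).diff (hrO z hz).1
      exact (e.symm : C2 →L[ℂ] C2).differentiableAt.comp z (h3.sub_const a₀))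
    (fun z hz => (hrO z hz).2.le) (e.symm ((F.triv x₀ x).2 - a₀)) hxn.le
  have hz₀K := huK z₀ (hrK z₀ hz₀)
  have huz : u z₀ = x := by
    have h3 : (F.triv x₀ (u z₀)).2 = (F.triv x₀ x).2 :=
      sub_left_injective (e.symm.injective hz₀e)
    refine (F.triv x₀).injOn (hrO z₀ hz₀).1 hxs (Prod.ext ?_ h3)
    rw [F.fst x₀ _ (hrO z₀ hz₀).1, F.fst x₀ _ hxs]
    exact hz₀K.1.self_of_nhds
  have hz₀n : ‖z₀‖ < 1 / 8 := by
    have : ‖z₀‖ < r := by simpa using hz₀
    linarith
  have hsum : ∀ z ∈ ball (0 : C2) (R + 1 / 4), z₀ + z ∈ ball (0 : C2) (R + 1 / 2) := by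
    intro z hz
    have h3 : ‖z‖ < R + 1 / 4 := by simpa using hz
    have h4 := norm_add_le z₀ z
    rw [mem_ball_zero_iff]
    linarith
  have hjd : ∀ z ∈ ball (0 : C2) (R + 1 / 2), DifferentiableAt ℂ (jac F vol (F.p x) u) z :=
    fun z hz => jac_diff F vol hvol (F.p x) u _ isOpen_ball (fun y hy => huK y
      (closedBall_subset_closedBall (by linarith) (ball_subset_closedBall hy))) hz
  obtain ⟨ψ, hψ0, hψ⟩ := hflat (fun z => jac F vol (F.p x) u (z₀ + z)) (fun z hz => by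
    refine ⟨?_, ?_⟩
    · exact DifferentiableAt.comp (g := jac F vol (F.p x) u) (f := fun z => z₀ + z) z
        (hjd _ (hsum z hz)) (by fun_prop)
    · have h3 := hjc (z₀ + z) (ball_subset_closedBall (hsum z hz))
      rw [(hg (z₀ + z) (closedBall_subset_closedBall (by linarith)
        (ball_subset_closedBall (hsum z hz)))).2] at h3
      exact h3.le)
  refine ⟨fun z => u (z₀ + ψ z), by simp [hψ0, huz], fun y hy => ?_⟩
  obtain ⟨h1, h2, h3⟩ := hψ y hy
  have hFH : FH F (F.p x) u (z₀ + ψ y) := huK _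
    (closedBall_subset_closedBall (by linarith) (ball_subset_closedBall (hsum _ h2)))
  have hq : DifferentiableAt ℂ (fun y => z₀ + ψ y) y := h1.const_add _
  refine ⟨FH.comp (u := u) (q := fun y => z₀ + ψ y) hFH hq, ?_⟩
  rw [jac_comp F vol (F.p x) u (fun y => z₀ + ψ y) y hFH hq, fderiv_const_add]
  exact h3

end Vale.Agent.P290.R2.H3
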